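import Vale.Agent.P310.Bound

/-!
# P310: deciding k-dimensional Weisfeiler-Leman equivalence needs time `n^{Ω(k)}`

Unconditionally, for every deterministic Turing machine.
-/

namespace Vale.Agent.Results.P310.WLTime

open Filter Asymptotics Turing _root_.P310

/-- the second part follows from the first one -/
theorem no_small_exponent {c : ℝ} (hc : 0 < c) {k₀ : ℕ}
    (h : ∀ k ≥ k₀, ∀ (tm : FinTM2) (T : ℕ → ℕ), Decides k tm T →
      ∃ n₀ : ℕ, ∀ n ≥ n₀, ∃ N ≤ n, (n : ℝ) ^ (c * k) < T N)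
    (g : ℕ → ℝ) (hg : g =o[atTop] fun k => (k : ℝ)) :
    ¬ ∀ k ≥ 2, ∃ (tm : FinTM2) (T : ℕ → ℕ), Decides k tm T ∧
      (fun n => (T n : ℝ)) =O[atTop] fun n : ℕ => (n : ℝ) ^ g k := by
  intro hall
  obtain ⟨k₁, hk₁⟩ := eventually_atTop.1 (hg.def (half_pos hc))
  obtain ⟨k, hk⟩ : ∃ k, k = max (max k₀ k₁) 2 := ⟨_, rfl⟩
  have hk0 : k₀ ≤ k := hk ▸ (le_max_left _ _).trans (le_max_left _ _)
  have hk1 : k₁ ≤ k := hk ▸ (le_max_right _ _).trans (le_max_left _ _)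
  have hk2 : 2 ≤ k := hk ▸ le_max_right _ _
  have hkR : (0 : ℝ) < k := by exact_mod_cast (by omega : 0 < k)
  have hgk : g k ≤ c / 2 * k := by
    have h1 := hk₁ k hk1
    rw [Real.norm_natCast] at h1
    exact (le_abs_self _).trans h1
  obtain ⟨tm, T, hdec, hO⟩ := hall k hk2
  obtain ⟨n₀, hn₀⟩ := h k hk0 tm T hdec
  obtain ⟨C, hC⟩ := hO.bound
  obtain ⟨n₁, hn₁⟩ := eventually_atTop.1 hC
  obtain ⟨M, hM⟩ : ∃ M : ℝ, M = ∑ N ∈ Finset.range (n₁ + 1), (T N : ℝ) := ⟨_, rfl⟩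
  have hM0 : 0 ≤ M := hM ▸ Finset.sum_nonneg fun _ _ => Nat.cast_nonneg _
  have htend : Tendsto (fun n : ℕ => (n : ℝ) ^ (c / 2 * k)) atTop atTop :=
    (tendsto_rpow_atTop (by positivity)).comp tendsto_natCast_atTop_atTop
  obtain ⟨n₂, hn₂⟩ := eventually_atTop.1 (htend.eventually_gt_atTop (M + |C|))
  obtain ⟨n, hn⟩ : ∃ n, n = max (max n₀ n₂) 1 := ⟨_, rfl⟩
  have hn0 : n₀ ≤ n := hn ▸ (le_max_left _ _).trans (le_max_left _ _)
  have hn2 : n₂ ≤ n := hn ▸ (le_max_right _ _).trans (le_max_left _ _)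
  have hn1 : 1 ≤ n := hn ▸ le_max_right _ _
  have hnR : (1 : ℝ) ≤ n := by exact_mod_cast hn1
  obtain ⟨N, hN, hT⟩ := hn₀ n hn0
  have hpow1 : (1 : ℝ) ≤ (n : ℝ) ^ (c / 2 * k) := Real.one_le_rpow hnR (by positivity)
  have hTN : (T N : ℝ) ≤ (M + |C|) * (n : ℝ) ^ (c / 2 * k) := by
    rcases Nat.lt_or_ge N (n₁ + 1) with hlt | hge
    · have h1 : (T N : ℝ) ≤ M := by
        rw [hM]
        exact Finset.single_le_sum (f := fun N => (T N : ℝ)) (fun _ _ => Nat.cast_nonneg _)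
          (Finset.mem_range.2 hlt)
      have h2 : (T N : ℝ) ≤ M + |C| := by have := abs_nonneg C; linarith
      exact h2.trans (le_mul_of_one_le_right (by positivity) hpow1)
    · have hN1 : (1 : ℝ) ≤ N := by exact_mod_cast (by omega : 1 ≤ N)
      have hNn : (N : ℝ) ≤ n := by exact_mod_cast hN
      have h1 := hn₁ N (by omega)
      rw [Real.norm_natCast, Real.norm_of_nonneg (by positivity)] at h1
      have h2 : (N : ℝ) ^ g k ≤ (n : ℝ) ^ (c / 2 * k) :=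
        (Real.rpow_le_rpow_of_exponent_le hN1 hgk).trans
          (Real.rpow_le_rpow (by linarith) hNn (by positivity))
      calc (T N : ℝ) ≤ C * (N : ℝ) ^ g k := h1
        _ ≤ |C| * (N : ℝ) ^ g k := mul_le_mul_of_nonneg_right (le_abs_self C) (by positivity)
        _ ≤ |C| * (n : ℝ) ^ (c / 2 * k) := mul_le_mul_of_nonneg_left h2 (abs_nonneg C)
        _ ≤ (M + |C|) * (n : ℝ) ^ (c / 2 * k) :=
            mul_le_mul_of_nonneg_right (by linarith) (by positivity)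
  have h3 : (n : ℝ) ^ (c * k) = (n : ℝ) ^ (c / 2 * k) * (n : ℝ) ^ (c / 2 * k) := by
    rw [← Real.rpow_add (by linarith)]
    congr 1
    ring
  have h4 := hn₂ n hn2
  have h5 : (M + |C|) * (n : ℝ) ^ (c / 2 * k) ≤ (n : ℝ) ^ (c / 2 * k) * (n : ℝ) ^ (c / 2 * k) :=
    mul_le_mul_of_nonneg_right h4.le (by positivity)
  rw [h3] at hT
  linarith

/-- **Deciding `≡_k` needs time `n^{Ω(k)}`.** There are `c > 0` and `k₀` such that for all
`k ≥ k₀`, every deterministic Turing machine which decides `≡_k` and whose running time on pairs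
of graphs with `N` vertices each is at most `T N` satisfies `max_{N ≤ n} T N > n ^ (c k)` for all
large `n`. In particular there is no `g` with `g k = o(k)` such that for every fixed `k` some
machine decides `≡_k` in time `O(n ^ (g k))`. -/
theorem result :
    (∃ c : ℝ, 0 < c ∧ ∃ k₀ : ℕ, ∀ k ≥ k₀, ∀ (tm : FinTM2) (T : ℕ → ℕ), Decides k tm T →
      ∃ n₀ : ℕ, ∀ n ≥ n₀, ∃ N ≤ n, (n : ℝ) ^ (c * k) < T N) ∧
    ∀ g : ℕ → ℝ, (g =o[atTop] fun k => (k : ℝ)) →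
      ¬ ∀ k ≥ 2, ∃ (tm : FinTM2) (T : ℕ → ℕ), Decides k tm T ∧
        (fun n => (T n : ℝ)) =O[atTop] fun n : ℕ => (n : ℝ) ^ g k := by
  obtain ⟨c, hc, k₀, h⟩ := lower_bound
  exact ⟨⟨c, hc, k₀, h⟩, no_small_exponent hc h⟩

end Vale.Agent.Results.P310.WLTime
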